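import Vale.Agent.P097.H869.G.RowC2

/-! # P097 / growth row: **Row C** (climb) with local data, literal form -/

set_option linter.all false

open Complex Metric Filter Topology Set

namespace Vale.Agent.P097.H869.G

open Vale.Agent.P097 Vale.Agent.P097.SC Vale.Agent.P097.H133.Tm Vale.Agent.P097.CD
open Vale.Agent.P097.H690.LD

variable {Λ : ℝ} {F q Q : ℂ → ℂ} {c : ℂ} {D r v K ε₁ N A₀ M₀ : ℝ}

theorem bx_mk (hB : BsOn Λ F q Q (ball c N)) (b : Nb c D r v K N A₀ M₀)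
    (bA : ∀ z ∈ ball c N, ‖deriv F z‖ ≤ A₀) (bM : ∀ z ∈ ball c N, ‖Q z‖ ≤ M₀) :
    Bx F q Q ((Λ : ℂ) ^ 3) (ball c (3 * N / 4)) A₀ M₀ M₀ := by
  obtain ⟨K0, n1, n2, n3, hK, hKD, r0, D0, vD, rN⟩ := b.more
  have N0 := b.N0
  have M00 := b.M00
  have hsub : ball c (3 * N / 4) ⊆ ball c N := ball_subset_ball (by linarith)
  refine ⟨hB.cne, isOpen_ball, fun x hx => hB.crv (hsub hx), fun x hx => hB.aQ (hsub hx),
    fun x hx => hB.gQ x (hsub hx), fun x hx => bA x (hsub hx), ?_, fun x hx => bM x (hsub hx)⟩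
  intro z hz
  rw [mem_ball_iff_norm] at hz
  have h := Complex.norm_deriv_le_of_forall_mem_sphere_norm_le (c := z) (R := N / 8) (C := A₀)
    (f := deriv F) (by positivity)
    ((hB.dF.deriv hB.op).diffContOnCl_ball (U := ball c N) (by
      intro y hy
      rw [mem_closedBall_iff_norm] at hy
      rw [mem_ball_iff_norm]
      have : ‖y - c‖ ≤ ‖y - z‖ + ‖z - c‖ := by
        have := norm_add_le (y - z) (z - c)
        rwa [sub_add_sub_cancel] at this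
      linarith)) (by
      intro y hy
      rw [mem_sphere_iff_norm] at hy
      apply bA
      rw [mem_ball_iff_norm]
      have : ‖y - c‖ ≤ ‖y - z‖ + ‖z - c‖ := by
        have := norm_add_le (y - z) (z - c)
        rwa [sub_add_sub_cancel] at this
      linarith)
  refine h.trans ?_
  rw [div_le_iff₀ (by positivity), b.AM]
  exact mul_le_mul_of_nonneg_left (by linarith) M00

theorem st_mk (hB : BsOn Λ F q Q (ball c (3 * N / 4))) (b : Nb c D r v K N A₀ M₀) {A P θ : ℂ × ℂ → ℂ}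
    (T : Bx F q Q ((Λ : ℂ) ^ 3) (ball c (3 * N / 4)) A₀ M₀ M₀)
    (hθ : ∀ t w : ℂ, (t, w) ∈ LoR c D r v K → ‖θ (t, w) - t‖ ≤ D)
    (hL : Lw F q Q (ball c (3 * N / 4)) A₀ M₀ (1 / 10000000) r (LoR c D r v K) A P θ) :
    St F q ((Λ : ℂ) ^ 3) c.re (K * D / 4) (c.im - (v + 2) * D + 20 * r)
      (c.im - v * D - 20 * r) (W0 r) D (1 / 100) (ph Λ F q A P θ) := by
  have n := b.n
  refine ⟨fun u hu => ph_an hB hL (mg_LoR n hu), ?_, fun u hu => hθ u.1 u.2 (mg_LoR n hu).z,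
    fun u hu => bound_et hB hL (mg_LoR n hu)⟩
  intro u hu hu'
  have m1 := mg_LoR n hu
  have m2 := mg_LoR n hu'
  have him : 0 < u.2.im := hu.2.2.2.1
  have h0 : u.2 ≠ 0 := by
    intro h
    rw [h] at him
    simp at him
  refine ph_rec hB hL T m1 m2 h0 ?_
  have hη := bound_et hB hL m1
  have hw : ‖u.2‖ < 10 * r := hu.2.2.2.2.1
  have hη2 : ‖et Λ F q A P θ u‖ ≤ 10 * r := by
    have h1 := norm_add_le (et Λ F q A P θ u - u.2 / 2) (u.2 / 2)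
    have e2 : ‖u.2 / 2‖ = ‖u.2‖ / 2 := by
      rw [norm_div]; norm_num
    rw [sub_add_cancel, e2] at h1
    have := norm_nonneg u.2
    linarith
  have A00 := b.A00
  have M00 := b.M00
  refine ⟨?_, ?_, ?_⟩
  · intro z hz
    have e1 : (ph Λ F q A P θ u).1 = θ u := rfl
    have e2 : (ph Λ F q A P θ u).2 = et Λ F q A P θ u := rfl
    rw [mem_closedBall_iff_norm, e1, e2] at hz
    have h1 := hθ u.1 u.2 m1.z
    obtain ⟨k1, k2, k3, k4⟩ := m1.z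
    exact near_c b k1 k2 k3 h1 (hz.trans (by linarith))
  · show A₀ * ‖et Λ F q A P θ u‖ < 1 / 100
    have h1 : A₀ * ‖et Λ F q A P θ u‖ ≤ A₀ * (10 * r) := by gcongr
    have := (size_A b).2
    have h3 : 0 ≤ A₀ * (10 * r) := (mul_nonneg A00 (norm_nonneg _)).trans h1
    linarith
  · show (M₀ + M₀) * ‖et Λ F q A P θ u‖ ^ 2 < 1 / 10000
    have h1 : (M₀ + M₀) * ‖et Λ F q A P θ u‖ ^ 2 ≤ (M₀ + M₀) * (10 * r) ^ 2 := by gcongr
    have := (size_M b).2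
    have h3 : 0 ≤ (M₀ + M₀) * (10 * r) ^ 2 := by positivity
    linarith

/-- **Row C** (climb), local data: `BsOn` on the ball `ball c (K D)` -/
def RowCl : Prop := ∃ ε₁ > 0, ∀ {Λ : ℝ} {F q Q : ℂ → ℂ} {c : ℂ} {D r v K : ℝ},
  BsOn Λ F q Q (ball c (K * D)) → 0 < D → 0 < r → 1 ≤ v → 400 * (v + 60) ≤ K →
  K * r ≤ ε₁ * D →
  (∀ z ∈ ball c (K * D), ‖deriv F z‖ * r * K ≤ ε₁ ∧ ‖Q z‖ * r * K * D ≤ ε₁) →
  ∀ {A P θ : ℂ × ℂ → ℂ}, AnalyticOnNhd ℂ A (LoR c D r v K) → AnalyticOnNhd ℂ P (LoR c D r v K) →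
  AnalyticOnNhd ℂ θ (LoR c D r v K) →
  (∀ t w : ℂ, (t, w) ∈ LoR c D r v K → ‖θ (t, w) - t‖ ≤ D) →
  (∀ t : ℂ, (t, (0 : ℂ)) ∈ LoR c D r v K → A (t, 0) = F t) →
  (∀ t w : ℂ, (t, w) ∈ LoR c D r v K → A (t, -w) = A (t, w) ∧ P (t, -w) = P (t, w) ∧
    θ (t, -w) = θ (t, w)) →
  (∀ t w : ℂ, (t + w / 2, w) ∈ LoR c D r v K → (t - w / 2, w) ∈ LoR c D r v K →
    ‖θ (t + w / 2, w) - θ (t - w / 2, w) - w‖ ≤ ε₁ * ‖w‖ ∧
    A (t + w / 2, w) + A (t - w / 2, w) = 2 * F (θ (t, w)) ∧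
    P (t + w / 2, w) + P (t - w / 2, w) =
      2 * q (θ (t, w)) * cos ((A (t + w / 2, w) - A (t - w / 2, w)) / 2) ∧
    deriv F (θ (t, w)) * (P (t + w / 2, w) - P (t - w / 2, w)) =
      2 * deriv q (θ (t, w)) * sin ((A (t + w / 2, w) - A (t - w / 2, w)) / 2)) →
  ∃ A' P' : ℂ × ℂ → ℂ, AnalyticOnNhd ℂ A' (UpR c D r v) ∧ AnalyticOnNhd ℂ P' (UpR c D r v) ∧
    ∀ u ∈ LoR c D r v K ∩ UpR c D r v, A' u = A u ∧ P' u = P u

theorem rowCl : RowCl := by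
  refine ⟨1 / 10000000, by norm_num, ?_⟩
  intro Λ F q Q c D r v K hB hD hr hv hK hKr hbd A P θ aA aP aθ hθ hA0 hev hlaw
  have n : Nu c D r v K := ⟨hD, hr, hv, hK, hKr⟩
  have b := nb_mk n
  have K0 := n.r'.1
  have bA : ∀ z ∈ ball c (K * D), ‖deriv F z‖ ≤ 1 / 10000000 / (r * K) := by
    intro z hz
    have h := (hbd z hz).1
    rw [le_div_iff₀ (by positivity)]
    linarith
  have bM : ∀ z ∈ ball c (K * D), ‖Q z‖ ≤ 1 / 10000000 / (r * K * D) := by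
    intro z hz
    have h := (hbd z hz).2
    rw [le_div_iff₀ (by positivity)]
    linarith
  have N0 : 0 < K * D := b.N0
  have hB' : BsOn Λ F q Q (ball c (3 * (K * D) / 4)) :=
    hB.mono isOpen_ball (ball_subset_ball (by linarith))
  have T := bx_mk hB b bA bM
  have hL := lw_mk b bA bM aA aP aθ hθ hlaw
  have hS := st_mk hB' b T hθ hL
  have Z := sz_mk b
  obtain ⟨A', a1, a2⟩ := glue n T Z hS (f := A) (G := aL F 1)
    (fun y hy => aL_an 1 (hB'.aF hy))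
    (fun u hu => (ph_out hB' hL (mg_LoR n hu)).1.symm) aA (fun t w h => (hev t w h).1)
  obtain ⟨P', p1, p2⟩ := glue n T Z hS (f := P) (G := qL F q 1)
    (fun y hy => qL_an 1 (hB'.aF hy) (hB'.aq hy))
    (fun u hu => (ph_out hB' hL (mg_LoR n hu)).2.symm) aP (fun t w h => (hev t w h).2.1)
  exact ⟨A', P', a1, p1, fun u hu => ⟨a2 u hu, p2 u hu⟩⟩

end Vale.Agent.P097.H869.G
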