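import Vale.Agent.P097.H275.G.Defs
import Vale.Agent.P097.H869.G.RowC

/-! # P097 / case [c], growth row: `GR.RowC`, literal -/

set_option linter.all false

open Complex Metric Filter Topology Set

namespace Vale.Agent.P097.H869.G

/-- **Row C** of the growth row -/
theorem rowC : GR.RowC := by
  obtain ⟨ε₁, h0, h⟩ := rowCl
  refine ⟨ε₁, h0, ?_⟩
  intro Λ b F q Q hB c D r v K hD hr hv hK hKr hsub hbd A P θ aA aP aθ hθ hA0 hev hlaw
  exact h (BsOn.ofCC hB isOpen_ball hsub) hD hr hv hK hKr hbd aA aP aθ hθ hA0 hev hlaw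

end Vale.Agent.P097.H869.G
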