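import Vale.Agent.P097.H690.LD.RowC
import Vale.Agent.P097.H286.C.Defs

/-! # P097 / growth row: Row C of case [d] with local data (one ball inside the strip), part 1

Port of `H690.LD.RowC1`: the entire curve `Bs` is replaced by the local structure `BsOn` on an
open set. -/

set_option linter.all false

open Complex Metric Filter Topology Set

namespace Vale.Agent.P097.H869.G

open Vale.Agent.P097 Vale.Agent.P097.SC Vale.Agent.P097.H133.Tm Vale.Agent.P097.CD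
open Vale.Agent.P097.H690.LD

/-- the curve on an open set `U` -/
structure BsOn (Λ : ℝ) (F q Q : ℂ → ℂ) (U : Set ℂ) : Prop where
  op : IsOpen U
  Λ0 : 0 < Λ
  dF : DifferentiableOn ℂ F U
  dq : DifferentiableOn ℂ q U
  dQ : DifferentiableOn ℂ Q U
  wr : ∀ z ∈ U, Wr F q z = (Λ : ℂ) ^ 3
  gQ : ∀ z ∈ U, deriv (deriv (deriv F)) z = Q z * deriv F z

variable {Λ : ℝ} {F q Q : ℂ → ℂ} {U V : Set ℂ}

theorem BsOn.mono (h : BsOn Λ F q Q U) (hV : IsOpen V) (hVU : V ⊆ U) : BsOn Λ F q Q V :=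
  ⟨hV, h.Λ0, h.dF.mono hVU, h.dq.mono hVU, h.dQ.mono hVU, fun z hz => h.wr z (hVU hz),
    fun z hz => h.gQ z (hVU hz)⟩

/-- the entire curve -/
theorem BsOn.ofBs (h : Bs Λ F q Q) (hU : IsOpen U) : BsOn Λ F q Q U :=
  ⟨hU, h.Λ0, h.dF.differentiableOn, h.dq.differentiableOn, h.dQ.differentiableOn,
    fun z _ => h.wr z, fun z _ => h.gQ z⟩

/-- case [c] -/
theorem BsOn.ofCC {b : ℝ} (h : CC.Bs Λ b F q Q) (hU : IsOpen U) (hUb : U ⊆ H202.Str b) :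
    BsOn Λ F q Q U :=
  ⟨hU, h.Λ0, h.dF.mono hUb, h.dq.mono hUb, h.dQ.mono hUb, fun z hz => h.wr z (hUb hz),
    fun z hz => h.gQ z (hUb hz)⟩

theorem BsOn.aF (h : BsOn Λ F q Q U) {x : ℂ} (hx : x ∈ U) : AnalyticAt ℂ F x :=
  h.dF.analyticAt (h.op.mem_nhds hx)

theorem BsOn.aq (h : BsOn Λ F q Q U) {x : ℂ} (hx : x ∈ U) : AnalyticAt ℂ q x :=
  h.dq.analyticAt (h.op.mem_nhds hx)

theorem BsOn.aQ (h : BsOn Λ F q Q U) {x : ℂ} (hx : x ∈ U) : AnalyticAt ℂ Q x :=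
  h.dQ.analyticAt (h.op.mem_nhds hx)

theorem BsOn.cne (h : BsOn Λ F q Q U) : ((Λ : ℂ) ^ 3) ≠ 0 :=
  pow_ne_zero 3 (by exact_mod_cast h.Λ0.ne')

theorem BsOn.crv (h : BsOn Λ F q Q U) {x : ℂ} (hx : x ∈ U) : Crv F q ((Λ : ℂ) ^ 3) x :=
  ⟨h.aF hx, h.aq hx, by filter_upwards [h.op.mem_nhds hx] with z hz using h.wr z hz⟩

theorem hasDerivAt_Gl (h : BsOn Λ F q Q U) (a p : ℂ) {x : ℂ} (hx : x ∈ U) :
    HasDerivAt (Gl F q a p) (Gl1 F q a p x) x := by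
  have hΦ := h.aF hx
  have hq := h.aq hx
  have h1 := hΦ.differentiableAt.hasDerivAt
  have h2 := hΦ.deriv.differentiableAt.hasDerivAt
  have h3 := hq.differentiableAt.hasDerivAt
  have h4 := hq.deriv.differentiableAt.hasDerivAt
  have hA := h1.const_sub a
  have hc := (Complex.hasDerivAt_cos (a - F x)).comp x hA
  have hs := (Complex.hasDerivAt_sin (a - F x)).comp x hA
  have h5 := (h2.mul ((h3.mul hc).sub_const p)).add (h4.mul hs)
  refine h5.congr_deriv ?_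
  simp only [Function.comp, Gl1, Pi.mul_apply]
  ring

theorem hasDerivAt_Gl1 (h : BsOn Λ F q Q U) (a p : ℂ) {x : ℂ} (hx : x ∈ U) :
    HasDerivAt (Gl1 F q a p) (Q x * Gl F q a p x - (Λ : ℂ) ^ 3 * Complex.cos (a - F x)) x := by
  have hC := h.crv hx
  have h1 := hC.aΦ.differentiableAt.hasDerivAt
  have h2 := hC.aΦ.deriv.differentiableAt.hasDerivAt
  have h22 := hC.aΦ.deriv.deriv.differentiableAt.hasDerivAt
  have h3 := hC.aq.differentiableAt.hasDerivAt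
  have h4 := hC.aq.deriv.deriv.differentiableAt.hasDerivAt
  have hA := h1.const_sub a
  have hcs := (Complex.hasDerivAt_cos (a - F x)).comp x hA
  have hs := (Complex.hasDerivAt_sin (a - F x)).comp x hA
  have h5 := (h22.mul ((h3.mul hcs).sub_const p)).add
    ((h4.add (h3.mul (h2.pow 2))).mul hs)
  refine h5.congr_deriv ?_
  have e1 := h.gQ x hx
  have e2 := third_eq hC h.cne (h.aQ hx)
    (by filter_upwards [h.op.mem_nhds hx] with z hz using h.gQ z hz)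
  have hw := h.wr x hx
  rw [Wr] at hw
  simp only [Function.comp, Gl, Pi.mul_apply, Pi.add_apply, Pi.pow_apply]
  rw [e1]
  push_cast
  norm_num
  linear_combination (Complex.sin (a - F x)) * e2 -
    (Complex.cos (a - F x)) * hw

/-- `F' Gl1 = c sin` at an incident vertex -/
theorem Gl1_sin (h : BsOn Λ F q Q U) {a p x : ℂ} (hx : x ∈ U) (hG : Gl F q a p x = 0) :
    deriv F x * Gl1 F q a p x = (Λ : ℂ) ^ 3 * Complex.sin (a - F x) := by
  have hw := h.wr x hx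
  rw [Wr] at hw
  rw [Gl] at hG
  rw [Gl1]
  linear_combination deriv (deriv F) x * hG + Complex.sin (a - F x) * hw

/-- **the line through two vertices** -/
theorem two_pt (h : BsOn Λ F q Q V) (hV : Convex ℝ V) {A₀ M : ℝ}
    (bA : ∀ x ∈ V, ‖deriv F x‖ ≤ A₀) (bM : ∀ x ∈ V, ‖Q x‖ ≤ M) {a p x₀ x₁ : ℂ} (h0 : x₀ ∈ V)
    (h1 : x₁ ∈ V) (g0 : Gl F q a p x₀ = 0) (g1 : Gl F q a p x₁ = 0)
    (hM : 4 * (M * ‖x₁ - x₀‖ ^ 2) ≤ 1) (hA : A₀ * ‖x₁ - x₀‖ ≤ 1 / 2) (hne : x₁ ≠ x₀) :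
    ‖Complex.sin (a - F x₀)‖ ≤ 2 * (A₀ * ‖x₁ - x₀‖) *
      (2 * ‖Complex.cos (a - F x₀)‖ + ‖Complex.sin (a - F x₀)‖) ∧
    ∀ ν : ℝ, (∀ y : ℂ, ‖y‖ ≤ A₀ * ‖x₁ - x₀‖ → ‖Complex.cos (a - F x₀ - y) - 1‖ ≤ ν) → ν ≤ 1 →
      ‖Gl1 F q a p x₀ / (Λ : ℂ) ^ 3 - (x₁ - x₀) / 2‖ ≤
        ‖x₁ - x₀‖ * (8 * (M * ‖x₁ - x₀‖ ^ 2) + ν) := by
  have hc := h.cne
  set c : ℂ := (Λ : ℂ) ^ 3 with hcd
  have hc0 : 0 < ‖c‖ := norm_pos_iff.2 hc
  set d : ℂ := x₁ - x₀ with hd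
  have hd0 : 0 < ‖d‖ := norm_pos_iff.2 (sub_ne_zero.2 hne)
  have hdn : d ≠ 0 := sub_ne_zero.2 hne
  have hM0 : 0 ≤ M := (norm_nonneg _).trans (bM _ h0)
  have hA0 : 0 ≤ A₀ := (norm_nonneg _).trans (bA _ h0)
  have hmem : ∀ s ∈ Icc (0 : ℝ) 1, x₀ + s * d ∈ V := by
    intro s hs
    have := hV h0 h1 (a := 1 - s) (b := s) (by linarith [hs.2]) hs.1 (by ring)
    have e : (1 - s) • x₀ + s • x₁ = x₀ + s * d := by
      rw [hd, Complex.real_smul, Complex.real_smul]; push_cast; ring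
    rwa [e] at this
  have hlin : ∀ s : ℝ, HasDerivAt (fun s : ℝ => x₀ + (s : ℂ) * d) d s := by
    intro s
    simpa using ((Complex.ofRealCLM.hasDerivAt (x := s)).mul_const d).const_add x₀
  -- variation of `F`
  have hF : ∀ s ∈ Icc (0 : ℝ) 1, ‖F (x₀ + s * d) - F x₀‖ ≤ A₀ * ‖d‖ := by
    intro s hs
    have h3 := hV.norm_image_sub_le_of_norm_hasDerivWithin_le (f := F) (f' := deriv F) (C := A₀)
      (x := x₀) (y := x₀ + s * d) (fun y hy => (h.aF hy).differentiableAt.hasDerivAt.hasDerivWithinAt) bA h0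
      (hmem s hs)
    refine h3.trans ?_
    have e : x₀ + s * d - x₀ = s * d := by ring
    rw [e, norm_mul, Complex.norm_real, Real.norm_eq_abs, abs_of_nonneg hs.1]
    have : s * ‖d‖ ≤ 1 * ‖d‖ := mul_le_mul_of_nonneg_right hs.2 hd0.le
    calc A₀ * (s * ‖d‖) ≤ A₀ * (1 * ‖d‖) := mul_le_mul_of_nonneg_left this hA0
      _ = _ := by ring
  set N : ℝ := 2 * ‖Complex.cos (a - F x₀)‖ + ‖Complex.sin (a - F x₀)‖ with hN
  have hN0 : 0 ≤ N := by positivity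
  have hcosN : ∀ s ∈ Icc (0 : ℝ) 1, ‖Complex.cos (a - F (x₀ + s * d))‖ ≤ N := by
    intro s hs
    have h4 := hF s hs
    set y := F (x₀ + s * d) - F x₀ with hy
    have hy2 : ‖y‖ ≤ 1 / 2 := h4.trans hA
    have e : a - F (x₀ + s * d) = (a - F x₀) - y := by rw [hy]; ring
    rw [e, Complex.cos_sub]
    refine (norm_add_le _ _).trans ?_
    rw [norm_mul, norm_mul]
    have c1 := norm_cos_le hy2
    have c2 : ‖Complex.sin y‖ ≤ 1 := (norm_sin_le hy2).trans (by linarith)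
    have c3 : ‖Complex.cos (a - F x₀)‖ * ‖Complex.cos y‖ ≤ ‖Complex.cos (a - F x₀)‖ * 2 :=
      mul_le_mul_of_nonneg_left c1 (norm_nonneg _)
    have c4 : ‖Complex.sin (a - F x₀)‖ * ‖Complex.sin y‖ ≤ ‖Complex.sin (a - F x₀)‖ * 1 :=
      mul_le_mul_of_nonneg_left c2 (norm_nonneg _)
    rw [hN]; linarith
  set f : ℝ → ℂ := fun s => Gl F q a p (x₀ + s * d) with hf
  set f1 : ℝ → ℂ := fun s => Gl1 F q a p (x₀ + s * d) * d with hf1
  set f2 : ℝ → ℂ := fun s => (Q (x₀ + s * d) * Gl F q a p (x₀ + s * d) -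
    c * Complex.cos (a - F (x₀ + s * d))) * d * d with hf2
  have d1 : ∀ s ∈ Icc (0 : ℝ) 1, HasDerivAt f (f1 s) s := fun s hs =>
    (hasDerivAt_Gl h a p (hmem s hs)).comp_of_eq s (hlin s) rfl
  have d2 : ∀ s ∈ Icc (0 : ℝ) 1, HasDerivAt f1 (f2 s) s := fun s hs =>
    ((hasDerivAt_Gl1 h a p (hmem s hs)).comp_of_eq s (hlin s) rfl).mul_const d
  have f0 : f 0 = 0 := by simp only [hf]; simpa using g0
  have fe : f 1 = 0 := by
    simp only [hf]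
    have e : x₀ + ((1 : ℝ) : ℂ) * d = x₁ := by rw [hd]; push_cast; ring
    rw [e]; exact g1
  -- sup of `f`
  have hcont : ContinuousOn (fun s => ‖f s‖) (Icc (0 : ℝ) 1) := fun s hs =>
    (d1 s hs).continuousAt.continuousWithinAt.norm
  obtain ⟨s₀, hs₀, hmax⟩ := isCompact_Icc.exists_isMaxOn ⟨0, by simp⟩ hcont
  set S : ℝ := ‖f s₀‖ with hS
  have hS0 : 0 ≤ S := norm_nonneg _
  have hle : ∀ s ∈ Icc (0 : ℝ) 1, ‖f s‖ ≤ S := fun s hs => hmax hs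
  have hf2b : ∀ s ∈ Icc (0 : ℝ) 1, ‖f2 s‖ ≤ (M * S + ‖c‖ * N) * ‖d‖ ^ 2 := by
    intro s hs
    rw [hf2]
    simp only
    rw [norm_mul, norm_mul]
    have b1 : ‖Q (x₀ + s * d) * Gl F q a p (x₀ + s * d) -
        c * Complex.cos (a - F (x₀ + s * d))‖ ≤ M * S + ‖c‖ * N := by
      refine (norm_sub_le _ _).trans ?_
      rw [norm_mul, norm_mul]
      exact add_le_add (mul_le_mul (bM _ (hmem s hs)) (hle s hs) (norm_nonneg _) hM0)
        (mul_le_mul_of_nonneg_left (hcosN s hs) hc0.le)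
    calc _ ≤ (M * S + ‖c‖ * N) * ‖d‖ * ‖d‖ := by gcongr
      _ = _ := by ring
  have hSb : S ≤ 4 * (‖c‖ * N * ‖d‖ ^ 2) := by
    have h5 := bvp_sup d1 d2 hf2b f0 fe hs₀
    have h6 : 2 * ((M * S + ‖c‖ * N) * ‖d‖ ^ 2) = 2 * (M * ‖d‖ ^ 2) * S +
      2 * (‖c‖ * N * ‖d‖ ^ 2) := by ring
    rw [h6] at h5
    have h7 : 2 * (M * ‖d‖ ^ 2) * S ≤ 1 / 2 * S :=
      mul_le_mul_of_nonneg_right (by linarith) hS0
    linarith
  have hf10 : f1 0 = Gl1 F q a p x₀ * d := by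
    simp only [hf1]; simp
  refine ⟨?_, ?_⟩
  · have h8 := bvp (m := 0) d1 d2 (fun s hs => by simpa using hf2b s hs) f0 fe
    rw [zero_div, add_zero, hf10, norm_mul] at h8
    have h9 : (M * S + ‖c‖ * N) * ‖d‖ ^ 2 ≤ 2 * (‖c‖ * N) * ‖d‖ * ‖d‖ := by
      have h10 : M * S ≤ ‖c‖ * N := by
        calc M * S ≤ M * (4 * (‖c‖ * N * ‖d‖ ^ 2)) := mul_le_mul_of_nonneg_left hSb hM0
          _ = (4 * (M * ‖d‖ ^ 2)) * (‖c‖ * N) := by ring
          _ ≤ 1 * (‖c‖ * N) := mul_le_mul_of_nonneg_right hM (by positivity)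
          _ = _ := one_mul _
      calc (M * S + ‖c‖ * N) * ‖d‖ ^ 2 ≤ (‖c‖ * N + ‖c‖ * N) * ‖d‖ ^ 2 := by gcongr
        _ = _ := by ring
    have h11 : ‖Gl1 F q a p x₀‖ ≤ 2 * (‖c‖ * N) * ‖d‖ :=
      le_of_mul_le_mul_right (h8.trans h9) hd0
    have h12 : ‖c‖ * ‖Complex.sin (a - F x₀)‖ ≤ ‖c‖ * (2 * (A₀ * ‖d‖) * N) := by
      rw [← norm_mul, ← Gl1_sin h h0 g0, norm_mul]
      calc ‖deriv F x₀‖ * ‖Gl1 F q a p x₀‖ ≤ A₀ * (2 * (‖c‖ * N) * ‖d‖) :=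
            mul_le_mul (bA _ h0) h11 (norm_nonneg _) hA0
        _ = _ := by ring
    exact le_of_mul_le_mul_left h12 hc0
  · intro ν hν hν1
    have hν0 : 0 ≤ ν := (norm_nonneg _).trans (hν 0 (by simp; positivity))
    have hcos1 : ∀ s ∈ Icc (0 : ℝ) 1, ‖Complex.cos (a - F (x₀ + s * d)) - 1‖ ≤ ν := by
      intro s hs
      have := hν (F (x₀ + s * d) - F x₀) (hF s hs)
      have e : a - F x₀ - (F (x₀ + s * d) - F x₀) = a - F (x₀ + s * d) := by ring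
      rwa [e] at this
    have hcos2 : ∀ s ∈ Icc (0 : ℝ) 1, ‖Complex.cos (a - F (x₀ + s * d))‖ ≤ 2 := by
      intro s hs
      have h13 := hcos1 s hs
      have : ‖Complex.cos (a - F (x₀ + s * d))‖ ≤ ‖Complex.cos (a - F (x₀ + s * d)) - 1‖ + 1 := by
        simpa using norm_add_le (Complex.cos (a - F (x₀ + s * d)) - 1) 1
      linarith
    -- better sup bound
    have hf2b' : ∀ s ∈ Icc (0 : ℝ) 1, ‖f2 s‖ ≤ (M * S + ‖c‖ * 2) * ‖d‖ ^ 2 := by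
      intro s hs
      rw [hf2]
      simp only
      rw [norm_mul, norm_mul]
      have b1 : ‖Q (x₀ + s * d) * Gl F q a p (x₀ + s * d) -
          c * Complex.cos (a - F (x₀ + s * d))‖ ≤ M * S + ‖c‖ * 2 := by
        refine (norm_sub_le _ _).trans ?_
        rw [norm_mul, norm_mul]
        exact add_le_add (mul_le_mul (bM _ (hmem s hs)) (hle s hs) (norm_nonneg _) hM0)
          (mul_le_mul_of_nonneg_left (hcos2 s hs) hc0.le)
      calc _ ≤ (M * S + ‖c‖ * 2) * ‖d‖ * ‖d‖ := by gcongr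
        _ = _ := by ring
    have hSb' : S ≤ 8 * (‖c‖ * ‖d‖ ^ 2) := by
      have h5 := bvp_sup d1 d2 hf2b' f0 fe hs₀
      have h6 : 2 * ((M * S + ‖c‖ * 2) * ‖d‖ ^ 2) = 2 * (M * ‖d‖ ^ 2) * S +
        4 * (‖c‖ * ‖d‖ ^ 2) := by ring
      rw [h6] at h5
      have h7 : 2 * (M * ‖d‖ ^ 2) * S ≤ 1 / 2 * S :=
        mul_le_mul_of_nonneg_right (by linarith) hS0
      linarith
    have h14 := bvp (m := -(c * d * d)) (K := (8 * (M * ‖d‖ ^ 2) + ν) * (‖c‖ * ‖d‖ ^ 2)) d1 d2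
      (fun s hs => by
        have e : f2 s - -(c * d * d) = (Q (x₀ + s * d) * Gl F q a p (x₀ + s * d) -
            c * (Complex.cos (a - F (x₀ + s * d)) - 1)) * d * d := by
          simp only [hf2]; ring
        rw [e, norm_mul, norm_mul]
        have b1 : ‖Q (x₀ + s * d) * Gl F q a p (x₀ + s * d) -
            c * (Complex.cos (a - F (x₀ + s * d)) - 1)‖ ≤ M * (8 * (‖c‖ * ‖d‖ ^ 2)) + ‖c‖ * ν := by
          refine (norm_sub_le _ _).trans ?_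
          rw [norm_mul, norm_mul]
          exact add_le_add (mul_le_mul (bM _ (hmem s hs)) ((hle s hs).trans hSb')
            (norm_nonneg _) hM0) (mul_le_mul_of_nonneg_left (hcos1 s hs) hc0.le)
        calc _ ≤ (M * (8 * (‖c‖ * ‖d‖ ^ 2)) + ‖c‖ * ν) * ‖d‖ * ‖d‖ := by gcongr
          _ = _ := by ring) f0 fe
    rw [hf10] at h14
    have e : Gl1 F q a p x₀ * d + -(c * d * d) / 2 = (Gl1 F q a p x₀ / c - d / 2) * (c * d) := by
      field_simp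
      ring
    rw [e, norm_mul, norm_mul] at h14
    have h15 : (8 * (M * ‖d‖ ^ 2) + ν) * (‖c‖ * ‖d‖ ^ 2) =
        (‖d‖ * (8 * (M * ‖d‖ ^ 2) + ν)) * (‖c‖ * ‖d‖) := by ring
    rw [h15] at h14
    exact le_of_mul_le_mul_right h14 (by positivity)

end Vale.Agent.P097.H869.G
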